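import Vale.Agent.P207.N4.Dim
import Vale.Agent.P207.N4.H732.LeafA

/-!
# P207, line N4, all dimensions: frames with a dense forward orbit

`FwdDense L x`: the forward orbit of `x` is dense modulo the group and the rotations. The property
depends only on the end point `ep x`, modulo the group (`fwd_of_ep`).
-/

open Set Filter Topology Metric

noncomputable section

namespace Vale.Agent.P207.N4.H732

open Vale.Agent.P207.N3 Vale.Agent.P207.N3.H732

variable [Dim]

variable {Γ X B : Type} [Group Γ] [MetricSpace X] [ProperSpace X] [MulAction Γ X]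
  [IsIsometricSMul Γ X] [TopologicalSpace B] [CompactSpace B] [T2Space B] [MulAction Γ B]
  [ContinuousConstSMul Γ B]

/-- the forward orbit is dense modulo the group and the rotations -/
def FwdDense (L : Leaf Γ X B) (x : X) : Prop :=
  ∀ W : Set X, IsOpen W → W.Nonempty → ∀ T : ℝ, ∃ t ≥ T, ∃ (a : O2) (g : Γ),
    g • L.rot a (L.φ t x) ∈ W

theorem FwdDense.smul {L : Leaf Γ X B} {x : X} (h : FwdDense L x) (γ : Γ) :
    FwdDense L (γ • x) := by
  intro W hW hne T
  obtain ⟨t, ht, a, g, hg⟩ := h W hW hne T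
  refine ⟨t, ht, a, g * γ⁻¹, ?_⟩
  have h1 : (g * γ⁻¹) • L.rot a (L.φ t (γ • x)) = g • L.rot a (L.φ t x) := by
    rw [L.φ_smul, L.rot_smul, smul_smul, inv_mul_cancel_right]
  rw [h1]
  exact hg

theorem FwdDense.flow {L : Leaf Γ X B} {x : X} (h : FwdDense L x) (s : ℝ) :
    FwdDense L (L.φ s x) := by
  intro W hW hne T
  obtain ⟨t, ht, a, g, hg⟩ := h W hW hne (T + s)
  refine ⟨t - s, by linarith, a, g, ?_⟩
  rw [← L.φ_add, sub_add_cancel]
  exact hg

theorem FwdDense.rotate {L : Leaf Γ X B} {x : X} (h : FwdDense L x) (b : O2) :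
    FwdDense L (L.rot b x) := by
  intro W hW hne T
  obtain ⟨t, ht, a, g, hg⟩ := h W hW hne T
  refine ⟨t, ht, b⁻¹ * a, g, ?_⟩
  have h1 : L.rot (b⁻¹ * a) (L.φ t (L.rot b x)) = L.rot a (L.φ t x) := by
    rw [← L.rot_φ, ← L.rot_mul, mul_inv_cancel_left]
  rw [h1]
  exact hg

/-- the forward orbit of a frame on the same stable leaf -/
theorem FwdDense.hol {L : Leaf Γ X B} {x : X} (h : FwdDense L x) {ξ : B} (hξ : ξ ≠ L.ep x) :
    FwdDense L (L.hol ξ x) := by
  intro W hW hne T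
  obtain ⟨w, hw⟩ := hne
  obtain ⟨ε, hε, hball⟩ := Metric.isOpen_iff.1 hW w hw
  -- the rotated frames are in a compact set
  set C : Set X := {y | (L.em y, L.ep y) ∈ ({(L.em x, L.ep x)} : Set (B × B)) ∧
    |L.lv y| ≤ |L.lv x|} with hC
  have hCc : IsCompact C := L.hopf_proper _ isCompact_singleton (by
    rintro p hp
    rw [mem_singleton_iff] at hp
    subst hp
    exact L.em_ne_ep x) _
  have hmem : ∀ b, L.rot b x ∈ C := fun b => by
    refine ⟨?_, ?_⟩
    · rw [mem_singleton_iff, L.em_rot, ep_rot]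
    · rw [L.lv_rot]
  have hK : IsCompact (({ξ} : Set B) ×ˢ C) := isCompact_singleton.prod hCc
  obtain ⟨c, hc⟩ := L.hol_asym _ hK (by
    rintro ⟨ζ, y⟩ ⟨h1, h2, -⟩
    rw [mem_singleton_iff] at h1 h2
    have h3 : L.ep y = L.ep x := (Prod.mk.inj h2).2
    have h4 : ζ = ξ := h1
    show ζ ≠ L.ep y
    rw [h3, h4]
    exact hξ)
  have htend : Tendsto (fun t : ℝ => c * Real.exp (-L.χ * t)) atTop (𝓝 0) := by
    have h2 : Tendsto (fun t : ℝ => Real.exp (-L.χ * t)) atTop (𝓝 0) := by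
      refine Real.tendsto_exp_atBot.comp ?_
      exact tendsto_id.const_mul_atTop_of_neg (by linarith [L.χ_pos])
    simpa using h2.const_mul c
  obtain ⟨T1, hT1⟩ := eventually_atTop.1 (htend.eventually (gt_mem_nhds (half_pos hε)))
  obtain ⟨t, ht, a, g, hg⟩ := h (ball w (ε / 2)) isOpen_ball ⟨w, mem_ball_self (half_pos hε)⟩
    (max T (max T1 0))
  have ht0 : 0 ≤ t := (le_max_right _ _).trans ((le_max_right _ _).trans ht)
  refine ⟨t, (le_max_left _ _).trans ht, a, g, hball ?_⟩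
  have h1 := hc (ξ, L.rot a x) ⟨mem_singleton _, hmem a⟩ t ht0
  have h2 : L.φ t (L.hol ξ (L.rot a x)) = L.rot a (L.φ t (L.hol ξ x)) := by
    rw [L.hol_rot a ξ x hξ, L.rot_φ]
  have h3 : L.φ t (L.rot a x) = L.rot a (L.φ t x) := (L.rot_φ a t x).symm
  rw [h2, h3] at h1
  have h4 : dist (g • L.rot a (L.φ t x)) (g • L.rot a (L.φ t (L.hol ξ x))) < ε / 2 := by
    rw [dist_smul]
    exact h1.trans_lt (hT1 t ((le_max_left _ _).trans ((le_max_right _ _).trans ht)))
  rw [mem_ball] at hg ⊢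
  rw [dist_comm] at h4
  linarith [dist_triangle (g • L.rot a (L.φ t (L.hol ξ x))) (g • L.rot a (L.φ t x)) w]

/-- **the density of the forward orbit depends only on the end point, modulo the group** -/
theorem fwd_of_ep {L : Leaf Γ X B} {x z : X} (h : FwdDense L x) (γ : Γ)
    (hz : L.ep z = γ • L.ep x) : FwdDense L z := by
  have h1 : FwdDense L (γ • x) := h.smul γ
  have hz' : L.ep z = L.ep (γ • x) := by rw [hz, ep_smul]
  have hξ : L.em z ≠ L.ep (γ • x) := by
    rw [← hz']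
    exact L.em_ne_ep z
  have h2 := (h1.hol hξ).flow (L.lv z - L.lv (L.hol (L.em z) (γ • x)))
  set y := L.φ (L.lv z - L.lv (L.hol (L.em z) (γ • x))) (L.hol (L.em z) (γ • x)) with hy
  obtain ⟨a, ha⟩ := L.frame_unique y z
    (by rw [hy, L.em_φ, L.hol_em _ _ hξ])
    (by rw [hy, ep_φ, L.hol_ep _ _ hξ, hz'])
    (by rw [hy, L.lv_φ]; ring)
  rw [ha]
  exact h2.rotate a

/-- the sequence form -/
theorem FwdDense.exists_seq {L : Leaf Γ X B} {x : X} (h : FwdDense L x) (w : X) :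
    ∃ (t : ℕ → ℝ) (a : ℕ → O2) (g : ℕ → Γ), Tendsto t atTop atTop ∧
      Tendsto (fun n => g n • L.rot (a n) (L.φ (t n) x)) atTop (𝓝 w) := by
  have h1 : ∀ n : ℕ, ∃ t ≥ (n : ℝ), ∃ (a : O2) (g : Γ),
      g • L.rot a (L.φ t x) ∈ ball w (1 / ((n : ℝ) + 1)) := fun n =>
    h _ isOpen_ball ⟨w, mem_ball_self (by positivity)⟩ n
  choose t ht a g hg using h1
  refine ⟨t, a, g, tendsto_atTop_mono ht tendsto_natCast_atTop_atTop, ?_⟩
  rw [tendsto_iff_dist_tendsto_zero]
  exact squeeze_zero (fun _ => dist_nonneg) (fun n => (mem_ball.1 (hg n)).le)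
    tendsto_one_div_add_atTop_nhds_zero_nat

end Vale.Agent.P207.N4.H732
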